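import Vale.Agent.P069.Final

/-- There is a separable reflexive infinite-dimensional real Banach space `X` whose norm is
asymptotically midpoint uniformly convex, with midpoint modulus at least `t ^ 2 / 1024` on
`(0, 1]`, and which has no equivalent asymptotically uniformly convex norm. -/
theorem Vale.Agent.Results.P069.ReflexiveAMUCNotAUC.result :
    ∃ (X : Type) (_ : NormedAddCommGroup X) (_ : NormedSpace ℝ X),
      CompleteSpace X ∧ ¬ FiniteDimensional ℝ X ∧ TopologicalSpace.SeparableSpace X ∧
      MidTree.IsReflexive X ∧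
      MidTree.IsAMUC (normSeminorm ℝ X) ∧
      (∀ t : ℝ, 0 < t → t ≤ 1 →
        ((t ^ 2 / 1024 : ℝ) : EReal) ≤ MidTree.amucModulus (normSeminorm ℝ X) t) ∧
      ¬ ∃ N : Seminorm ℝ X, MidTree.IsEquivalentNorm N ∧ MidTree.IsAUC N := by
  refine ⟨MidTree.Y →L[ℝ] ℝ, inferInstance, inferInstance, inferInstance, MidTree.not_finite,
    MidTree.separable, MidTree.reflexive, MidTree.amuc_norm, fun t ht ht1 => ?_, ?_⟩
  · have h := MidTree.amuc_bound ht
    rwa [min_eq_left ht1] at h
  · rintro ⟨N, hN, h⟩
    exact MidTree.not_auc N hN h
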